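import Vale.Agent.P088.R2.H404.Sel

/-!
# P088, stage 3: zoomed selection

For a family of problems indexed by a scale (the inversion radius) the function `u` is smaller
than `exp (-M)` at all points with `-η < G`, where `M → ∞`.  Then the selection of helper404 can
be made with `ρ ^ (1 - 2 ε) ≤ log (1 / u p) ≤ η ρ`, that is with a concentration point whose
depth of decay is almost linear in the slope.
-/

namespace Vale.Agent.P088.R2.H303

open Real Set Filter Topology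
open Vale.Agent.P088.R2.H404 (IsSel exists_isSel sel_mono sel_localise)

/-- `(D + ρ g) / ρ` is nonincreasing. -/
theorem av_anti {D g : ℝ → ℝ} (hD0 : ∀ ρ, 0 < ρ → 0 ≤ D ρ)
    (hF2 : ∀ ρ₁ ρ₂, 0 < ρ₁ → 0 < ρ₂ → D ρ₁ + ρ₁ * g ρ₁ ≤ D ρ₂ + ρ₁ * g ρ₂)
    {a b : ℝ} (ha : 0 < a) (hab : a ≤ b) :
    (D b + b * g b) / b ≤ (D a + a * g a) / a := by
  have hb : 0 < b := lt_of_lt_of_le ha hab
  have h1 := hF2 b a hb ha
  have h2 : (D b + b * g b) / b ≤ (D a + b * g a) / b :=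
    div_le_div_of_nonneg_right h1 hb.le
  have h3 : (D a + b * g a) / b = D a / b + g a := by field_simp
  have h4 : (D a + a * g a) / a = D a / a + g a := by field_simp
  have h5 : D a / b ≤ D a / a := div_le_div_of_nonneg_left (hD0 a ha) ha hab
  linarith

/-- doubling step -/
theorem av_step {D g : ℝ → ℝ}
    (hF2 : ∀ ρ₁ ρ₂, 0 < ρ₁ → 0 < ρ₂ → D ρ₁ + ρ₁ * g ρ₁ ≤ D ρ₂ + ρ₁ * g ρ₂)
    {a : ℝ} (ha : 0 < a) :
    (D a + a * g a) / a ≤
      (D (2 * a) + 2 * a * g (2 * a)) / (2 * a) + D (2 * a) / (2 * a) := by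
  have h1 := hF2 a (2 * a) ha (by linarith)
  have h2 : (D a + a * g a) / a ≤ (D (2 * a) + a * g (2 * a)) / a :=
    div_le_div_of_nonneg_right h1 ha.le
  have h3 : (D (2 * a) + a * g (2 * a)) / a = D (2 * a) / a + g (2 * a) := by field_simp
  have h4 : (D (2 * a) + 2 * a * g (2 * a)) / (2 * a) + D (2 * a) / (2 * a) =
      D (2 * a) / a + g (2 * a) := by field_simp; ring
  linarith

/-- one-dimensional zoom lemma: existence of a scale with almost linear decay depth -/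
theorem exists_zoom_growth {η ε M : ℝ} (hη : 0 < η) (hε : 0 < ε) (hM : 0 < M)
    (hM2 : 1 / (2 ^ ε - 1) < η * (M / η) ^ ε)
    (D g : ℝ → ℝ) (hD0 : ∀ ρ, 0 < ρ → 0 ≤ D ρ)
    (hF2 : ∀ ρ₁ ρ₂, 0 < ρ₁ → 0 < ρ₂ → D ρ₁ + ρ₁ * g ρ₁ ≤ D ρ₂ + ρ₁ * g ρ₂)
    (hF3 : ∀ θ > 0, ∃ ρ₁, ∀ ρ ≥ ρ₁, D ρ + ρ * g ρ ≤ θ * ρ)
    (hlow : ∀ ρ, 0 < ρ → min (η * ρ) M ≤ D ρ + ρ * g ρ) :
    ∃ ρ ≥ M / η, ρ ^ (1 - ε) ≤ D ρ ∧ ∀ ρ' ≥ ρ, D ρ' + ρ' * g ρ' ≤ η * ρ' := by
  set A : ℝ → ℝ := fun ρ => (D ρ + ρ * g ρ) / ρ with hA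
  set r₀ : ℝ := M / η with hr₀
  have hr₀pos : 0 < r₀ := div_pos hM hη
  set R : ℕ → ℝ := fun k => 2 ^ k * r₀ with hR
  have hRpos : ∀ k, 0 < R k := fun k => by simp only [hR]; positivity
  have hR0 : A (R 0) ≥ η := by
    have h1 := hlow r₀ hr₀pos
    have h2 : η * r₀ = M := by rw [hr₀]; field_simp
    rw [h2, min_self] at h1
    simp only [hR, hA, pow_zero, one_mul, ge_iff_le]
    rw [le_div_iff₀ hr₀pos, h2]
    exact h1
  have hex : ∃ k, A (R k) < η := by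
    obtain ⟨ρ₁, h1⟩ := hF3 (η / 2) (by positivity)
    obtain ⟨k, hk⟩ := pow_unbounded_of_one_lt (ρ₁ / r₀) (show (1 : ℝ) < 2 by norm_num)
    refine ⟨k, ?_⟩
    have h2 : ρ₁ ≤ R k := by
      rw [div_lt_iff₀ hr₀pos] at hk
      exact hk.le
    have h3 := h1 (R k) h2
    simp only [hA]
    rw [div_lt_iff₀ (hRpos k)]
    nlinarith [hRpos k]
  classical
  set k₁ := Nat.find hex with hk₁
  have hk₁s : A (R k₁) < η := Nat.find_spec hex
  have hk₁0 : k₁ ≠ 0 := by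
    intro h
    rw [h] at hk₁s
    exact absurd hk₁s (not_lt.mpr hR0)
  obtain ⟨k₀, hk₀⟩ := Nat.exists_eq_succ_of_ne_zero hk₁0
  have hk₀s : η ≤ A (R k₀) := by
    have := Nat.find_min hex (m := k₀) (by rw [← hk₁, hk₀]; exact Nat.lt_succ_self _)
    exact not_lt.mp this
  have hAlt : ∀ ρ' ≥ R k₁, D ρ' + ρ' * g ρ' ≤ η * ρ' := by
    intro ρ' hρ'
    have hpos : 0 < ρ' := lt_of_lt_of_le (hRpos _) hρ'
    have h1 := av_anti hD0 hF2 (hRpos k₁) hρ'
    have h2 : (D ρ' + ρ' * g ρ') / ρ' ≤ η := by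
      refine h1.trans hk₁s.le
    rwa [div_le_iff₀ hpos] at h2
  by_contra hcon
  push Not at hcon
  have hno : ∀ k, k₁ ≤ k → D (R k) < (R k) ^ (1 - ε) := by
    intro k hk
    by_contra hc
    push Not at hc
    have hRk : R k₁ ≤ R k := by
      simp only [hR]
      have : (2 : ℝ) ^ k₁ ≤ 2 ^ k := pow_le_pow_right₀ (by norm_num) hk
      nlinarith
    have hge : R k ≥ M / η := by
      have h1 : (1 : ℝ) ≤ 2 ^ k := one_le_pow₀ (by norm_num)
      simp only [hR, ge_iff_le]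
      have h2 : r₀ = M / η := hr₀
      rw [← h2]; nlinarith
    obtain ⟨ρ', h1, h2⟩ := hcon (R k) hge hc
    exact absurd (hAlt ρ' (hRk.trans h1)) (not_le.mpr h2)
  have h2ε : 1 < (2 : ℝ) ^ ε := Real.one_lt_rpow (by norm_num) hε
  have h2ε' : 0 < (2 : ℝ) ^ ε - 1 := by linarith
  set c := 1 / ((2 : ℝ) ^ ε - 1) with hc
  have hcpos : 0 < c := by positivity
  -- the monotone quantity
  have hstep : ∀ k, k₀ ≤ k →
      A (R k) - c * (R k) ^ (-ε) ≤ A (R (k + 1)) - c * (R (k + 1)) ^ (-ε) := by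
    intro k hk
    have e1 : R (k + 1) = 2 * R k := by simp only [hR]; ring
    have h1 := av_step hF2 (hRpos k)
    have h2 := hno (k + 1) (by omega)
    rw [e1] at h2
    have h3 : D (2 * R k) / (2 * R k) ≤ (2 * R k) ^ (-ε) := by
      have hp : 0 < 2 * R k := by have := hRpos k; linarith
      rw [div_le_iff₀ hp]
      refine h2.le.trans (le_of_eq ?_)
      rw [show (1 - ε : ℝ) = -ε + 1 by ring, Real.rpow_add_one hp.ne']
    have h4 : (2 * R k) ^ (-ε) = (2 : ℝ) ^ (-ε) * (R k) ^ (-ε) :=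
      Real.mul_rpow (by norm_num) (hRpos k).le
    have h5 : c * (R k) ^ (-ε) = (1 + c) * (2 * R k) ^ (-ε) := by
      rw [h4, Real.rpow_neg (by norm_num : (0:ℝ) ≤ 2)]
      have : (2 : ℝ) ^ ε ≠ 0 := by positivity
      rw [hc]
      field_simp
      ring
    rw [e1]
    simp only [hA]
    linarith
  have hiter : ∀ j, A (R k₀) - c * (R k₀) ^ (-ε) ≤
      A (R (k₀ + j)) - c * (R (k₀ + j)) ^ (-ε) := by
    intro j
    induction j with
    | zero => simp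
    | succ j ih => exact ih.trans (hstep (k₀ + j) (by omega))
  have hfin : A (R k₀) - c * (R k₀) ^ (-ε) ≤ 0 := by
    apply le_of_forall_pos_le_add
    intro θ hθ
    obtain ⟨ρ₁, h1⟩ := hF3 θ hθ
    obtain ⟨j, hj⟩ := pow_unbounded_of_one_lt (ρ₁ / r₀) (show (1 : ℝ) < 2 by norm_num)
    have h2 : ρ₁ ≤ R (k₀ + j) := by
      rw [div_lt_iff₀ hr₀pos] at hj
      have h3 : (2 : ℝ) ^ j ≤ 2 ^ (k₀ + j) := pow_le_pow_right₀ (by norm_num) (by omega)
      have h4 : (2 : ℝ) ^ j * r₀ ≤ 2 ^ (k₀ + j) * r₀ := mul_le_mul_of_nonneg_right h3 hr₀pos.le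
      exact hj.le.trans h4
    have h3 : A (R (k₀ + j)) ≤ θ := by
      simp only [hA]
      rw [div_le_iff₀ (hRpos _)]
      exact h1 _ h2
    have h4 : 0 ≤ c * (R (k₀ + j)) ^ (-ε) := by
      have := (hRpos (k₀ + j)).le
      positivity
    have := hiter j
    linarith
  -- contradiction
  have hRk0 : r₀ ≤ R k₀ := by
    have h1 : (1 : ℝ) ≤ 2 ^ k₀ := one_le_pow₀ (by norm_num)
    simp only [hR]; nlinarith
  have h6 : η ≤ c * (R k₀) ^ (-ε) := by linarith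
  have h7 : (R k₀) ^ (-ε) ≤ r₀ ^ (-ε) :=
    Real.rpow_le_rpow_of_nonpos hr₀pos hRk0 (by linarith)
  have h8 : η ≤ c * r₀ ^ (-ε) := h6.trans (mul_le_mul_of_nonneg_left h7 hcpos.le)
  have h9 : η * r₀ ^ ε ≤ c := by
    have hp : 0 < r₀ ^ ε := Real.rpow_pos_of_pos hr₀pos _
    have := mul_le_mul_of_nonneg_right h8 hp.le
    rw [mul_assoc, ← Real.rpow_add hr₀pos, neg_add_cancel, Real.rpow_zero, mul_one] at this
    exact this
  linarith

/-- selection of a regular scale keeping the almost linear decay depth -/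
theorem exists_zoom_slow {D : ℝ → ℝ} (hmono : ∀ ρ₁ ρ₂, 0 < ρ₁ → ρ₁ ≤ ρ₂ → D ρ₁ ≤ D ρ₂)
    {η ε r x : ℝ} (hη1 : η ≤ 1 / 2) (hε : 0 < ε)
    (hr : 1 ≤ r) (hDr : r ^ (1 - ε) ≤ D r) (hDle : ∀ ρ ≥ r, D ρ ≤ η * ρ)
    (hx0 : 0 < x) (hx : x ≤ 1 / 6) (hε1 : ε ≤ 1 / 2) :
    ∃ ρ ≥ r, ρ ^ (1 - 2 * ε) ≤ D ρ ∧ D (ρ * (1 + x)) - D (ρ * (1 - x)) ≤ 6 * x * D ρ := by
  have hr0 : 0 < r := by linarith
  set q := (1 + x) / (1 - x) with hq
  have h1x : 0 < 1 - x := by linarith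
  have hq1 : 1 < q := by rw [hq, lt_div_iff₀ h1x]; linarith
  have hq2 : q ≤ 7 / 5 := by rw [hq, div_le_iff₀ h1x]; linarith
  have hqsq : q ^ 2 ≤ 1 + 6 * x := by
    rw [hq, div_pow, div_le_iff₀ (by positivity)]
    nlinarith [mul_pos hx0 hx0]
  have hrε1 : 1 ≤ r ^ ε := Real.one_le_rpow hr hε.le
  have hDr0 : 0 < D r := lt_of_lt_of_le (Real.rpow_pos_of_pos hr0 _) hDr
  by_contra hcon
  push Not at hcon
  have hind : ∀ k : ℕ, q ^ k ≤ r ^ ε → q ^ (2 * k) * D r ≤ D (q ^ k * r) := by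
    intro k
    induction k with
    | zero => intro _; simp
    | succ k ih =>
      intro hk
      have hqk : 0 < q ^ k := by positivity
      have hqk1 : (1 : ℝ) ≤ q ^ k := one_le_pow₀ hq1.le
      have hk' : q ^ k ≤ r ^ ε := by
        refine le_trans ?_ hk
        rw [pow_succ]; nlinarith
      have h1 := ih hk'
      set ρ := q ^ k * r / (1 - x) with hρ
      have e1 : ρ * (1 - x) = q ^ k * r := by rw [hρ]; field_simp
      have e2 : ρ * (1 + x) = q ^ (k + 1) * r := by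
        rw [hρ, pow_succ, hq]; field_simp
      have hρge : q ^ k * r ≤ ρ := by
        rw [hρ, le_div_iff₀ h1x]
        have : 0 < q ^ k * r := by positivity
        nlinarith
      have hrk : r ≤ q ^ k * r := by nlinarith
      have hρpos : 0 < ρ := by linarith
      have hρ1 : 1 ≤ ρ := by linarith
      have hρle : ρ ≤ r ^ (1 + ε) := by
        have h2 : ρ ≤ ρ * (1 + x) := by nlinarith
        rw [e2] at h2
        refine h2.trans ?_
        rw [Real.rpow_add hr0, Real.rpow_one, mul_comm]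
        exact mul_le_mul_of_nonneg_left hk hr0.le
      have hρrpow : ρ ^ (1 - 2 * ε) ≤ r ^ (1 - ε) := by
        calc ρ ^ (1 - 2 * ε) ≤ (r ^ (1 + ε)) ^ (1 - 2 * ε) :=
              Real.rpow_le_rpow hρpos.le hρle (by linarith)
          _ = r ^ ((1 + ε) * (1 - 2 * ε)) := by rw [← Real.rpow_mul hr0.le]
          _ ≤ r ^ (1 - ε) := Real.rpow_le_rpow_of_exponent_le hr (by nlinarith [sq_nonneg ε])
      have hDρ : D r ≤ D ρ := hmono r ρ hr0 (by linarith)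
      have h4 := hcon ρ (by linarith) (hρrpow.trans (hDr.trans hDρ))
      rw [e1, e2] at h4
      have hDk : D (q ^ k * r) ≤ D ρ := hmono _ _ (by positivity) hρge
      have hDk0 : 0 < D (q ^ k * r) := lt_of_lt_of_le hDr0 (hmono _ _ hr0 hrk)
      calc q ^ (2 * (k + 1)) * D r = q ^ 2 * (q ^ (2 * k) * D r) := by ring
        _ ≤ q ^ 2 * D (q ^ k * r) := mul_le_mul_of_nonneg_left h1 (by positivity)
        _ ≤ (1 + 6 * x) * D (q ^ k * r) := mul_le_mul_of_nonneg_right hqsq hDk0.le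
        _ ≤ D (q ^ (k + 1) * r) := by nlinarith
  obtain ⟨k, hk1, hk2⟩ := exists_nat_pow_near hrε1 hq1
  have h5 := hind k hk1
  have hqk1 : (1 : ℝ) ≤ q ^ k := one_le_pow₀ hq1.le
  have hqk0 : 0 < q ^ k := by linarith
  have h6 : D (q ^ k * r) ≤ η * (q ^ k * r) := hDle _ (by nlinarith)
  have h7 : q ^ k * D r ≤ η * r := by
    have : q ^ k * (q ^ k * D r) ≤ q ^ k * (η * r) := by
      calc q ^ k * (q ^ k * D r) = q ^ (2 * k) * D r := by ring
        _ ≤ _ := h5.trans (by linarith)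
    exact le_of_mul_le_mul_left this hqk0
  have h8 : q ^ k * r ^ (1 - ε) ≤ η * r :=
    (mul_le_mul_of_nonneg_left hDr hqk0.le).trans h7
  have h9 : r = r ^ (1 - ε) * r ^ ε := by
    rw [← Real.rpow_add hr0]; norm_num
  have hrp : 0 < r ^ (1 - ε) := Real.rpow_pos_of_pos hr0 _
  have h10 : q ^ k ≤ η * r ^ ε := by
    have : q ^ k * r ^ (1 - ε) ≤ (η * r ^ ε) * r ^ (1 - ε) := by
      calc q ^ k * r ^ (1 - ε) ≤ η * r := h8
        _ = (η * r ^ ε) * r ^ (1 - ε) := by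
            conv_lhs => rw [h9]
            ring
    exact le_of_mul_le_mul_right this hrp
  have h11 : r ^ ε < q ^ k * q := by rw [← pow_succ]; exact hk2
  have hrεpos : 0 < r ^ ε := by linarith
  nlinarith

/-- **Zoomed selection theorem.**  `u = |h|`, `G ≤ 0` on the compact set `K`; `u` is at most
`exp (-M)` at the points with `-G < η`, and `M` is large (depending on `η`, `ε` only).  Then there
are a slope `ρ ≥ M / η` and a maximiser `p` of `u exp (ρ G)` with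
`ρ ^ (1 - 2 ε) ≤ log (1 / u p)`, `log (1 / u p) + ρ (-G p) ≤ η ρ`, and with the two-sided
localisation at the level `G p`. -/
theorem exists_zoom_selection {X : Type*} [TopologicalSpace X] {K : Set X} (hK : IsCompact K)
    {u G : X → ℝ} (hu : ContinuousOn u K) (hG : ContinuousOn G K)
    (hu0 : ∀ p ∈ K, 0 ≤ u p) (hu1 : ∀ p ∈ K, u p ≤ 1) (hG0 : ∀ p ∈ K, G p ≤ 0)
    (hsupp : ∀ θ > 0, ∃ p ∈ K, 0 < u p ∧ -θ < G p)
    {η ε M : ℝ} (hη : 0 < η) (hη1 : η ≤ 1 / 2) (hε : 0 < ε) (hε1 : ε ≤ 1 / 2) (hM : 1 ≤ M)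
    (hM2 : 1 / (2 ^ ε - 1) < η * (M / η) ^ ε)
    (hflat : ∀ p ∈ K, -η < G p → u p ≤ exp (-M))
    {N' : ℝ} (hN : 6 ≤ N') :
    ∃ ρ ≥ M / η, ∃ p ∈ K, 0 < u p ∧ ρ ^ (1 - 2 * ε) ≤ log (1 / u p) ∧
      log (1 / u p) + ρ * (-G p) ≤ η * ρ ∧
      (∀ y ∈ K, u y * exp (ρ * (G y - G p)) ≤ u p) ∧
      ∀ y ∈ K, u y * exp (ρ * (G y - G p)) ≤
        (u p) ^ (1 - 6 / N' ^ 2) * exp (-(ρ / N') * |G y - G p|) := by
  have hne : ∃ p ∈ K, 0 < u p := by
    obtain ⟨p, hp, hup, _⟩ := hsupp 1 one_pos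
    exact ⟨p, hp, hup⟩
  choose P hP using fun ρ => exists_isSel hK hu hG hne ρ
  set D : ℝ → ℝ := fun ρ => - log (u (P ρ)) with hD
  set g : ℝ → ℝ := fun ρ => - G (P ρ) with hg
  have hg0 : ∀ ρ, 0 ≤ g ρ := fun ρ => by
    have := hG0 _ (hP ρ).1
    simp only [hg]; linarith
  have hD0 : ∀ ρ, 0 < ρ → 0 ≤ D ρ := fun ρ _ => by
    have := Real.log_nonpos (hP ρ).2.1.le (hu1 _ (hP ρ).1)
    simp only [hD]; linarith
  have hF2 : ∀ ρ₁ ρ₂, 0 < ρ₁ → 0 < ρ₂ → D ρ₁ + ρ₁ * g ρ₁ ≤ D ρ₂ + ρ₁ * g ρ₂ := by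
    intro ρ₁ ρ₂ _ _
    have := (hP ρ₁).2.2 _ (hP ρ₂).1 (hP ρ₂).2.1
    simp only [hD, hg]; linarith
  have hmono : ∀ ρ₁ ρ₂, 0 < ρ₁ → ρ₁ ≤ ρ₂ → D ρ₁ ≤ D ρ₂ := by
    intro ρ₁ ρ₂ h1 h12
    rcases h12.eq_or_lt with rfl | hlt
    · exact le_rfl
    · obtain ⟨a1, a2, a3⟩ := sel_mono hlt (hP ρ₁) (hP ρ₂)
      have : 0 ≤ ρ₁ * (G (P ρ₂) - G (P ρ₁)) := mul_nonneg h1.le (by linarith)
      simp only [hD]; linarith
  have hF3 : ∀ θ > 0, ∃ ρ₁, ∀ ρ ≥ ρ₁, D ρ + ρ * g ρ ≤ θ * ρ := by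
    intro θ hθ
    obtain ⟨p, hp, hup, hGp⟩ := hsupp (θ / 2) (by positivity)
    refine ⟨max 0 (2 * (- log (u p)) / θ), fun ρ hρ => ?_⟩
    have hρ0 : 0 ≤ ρ := (le_max_left _ _).trans hρ
    have hρ1 : 2 * (- log (u p)) / θ ≤ ρ := (le_max_right _ _).trans hρ
    rw [div_le_iff₀ hθ] at hρ1
    have h1 := (hP ρ).2.2 p hp hup
    simp only [hD, hg]
    nlinarith
  have hlow : ∀ ρ, 0 < ρ → min (η * ρ) M ≤ D ρ + ρ * g ρ := by
    intro ρ hρ
    rcases lt_or_ge (-η) (G (P ρ)) with h | h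
    · have h1 := Real.log_le_log (hP ρ).2.1 (hflat _ (hP ρ).1 h)
      rw [Real.log_exp] at h1
      have h2 : 0 ≤ ρ * g ρ := mul_nonneg hρ.le (hg0 ρ)
      refine (min_le_right _ _).trans ?_
      simp only [hD]; linarith
    · refine (min_le_left _ _).trans ?_
      have h1 := hD0 ρ hρ
      have h2 : η ≤ g ρ := by simp only [hg]; linarith
      nlinarith
  obtain ⟨r, hr, hDr, hle⟩ := exists_zoom_growth hη hε (by linarith) hM2 D g hD0 hF2 hF3 hlow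
  have hr1 : 1 ≤ r := by
    refine le_trans ?_ hr
    rw [le_div_iff₀ hη]; linarith
  have hN0 : 0 < N' := by linarith
  have hx0 : 0 < 1 / N' := by positivity
  have hx6 : 1 / N' ≤ 1 / 6 := one_div_le_one_div_of_le (by norm_num) hN
  have hDle : ∀ ρ ≥ r, D ρ ≤ η * ρ := by
    intro ρ hρ
    have h1 := hle ρ hρ
    have h2 : 0 ≤ ρ * g ρ := mul_nonneg (by linarith) (hg0 ρ)
    linarith
  obtain ⟨ρ, hρ, hDC, hDs⟩ := exists_zoom_slow hmono hη1 hε hr1 hDr hDle hx0 hx6 hε1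
  have hρ1 : 1 ≤ ρ := hr1.trans hρ
  have hρ0 : 0 < ρ := by linarith
  have hup := (hP ρ).2.1
  have hlog1 : log (1 / u (P ρ)) = D ρ := by
    rw [one_div, Real.log_inv]
  refine ⟨ρ, hr.trans hρ, P ρ, (hP ρ).1, hup, ?_, ?_, ?_, ?_⟩
  · rw [hlog1]; exact hDC
  · rw [hlog1]; exact hle ρ hρ
  · intro y hy
    rcases (hu0 y hy).eq_or_lt with h0 | h0
    · rw [← h0, zero_mul]; exact hup.le
    · have h1 := (hP ρ).2.2 y hy h0
      rw [← Real.exp_log h0, ← Real.exp_add, ← Real.exp_log hup]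
      apply Real.exp_le_exp.mpr
      linarith
  · intro y hy
    rcases (hu0 y hy).eq_or_lt with h0 | h0
    · rw [← h0, zero_mul]; positivity
    · have h1 := sel_localise hρ0 hx0 (by linarith : 1 / N' < 1) (hP ρ) (hP _) (hP _) hy h0
      rw [Real.rpow_def_of_pos hup, ← Real.exp_log h0, ← Real.exp_add, ← Real.exp_add]
      apply Real.exp_le_exp.mpr
      have h2 : 1 / N' * (log (u (P (ρ * (1 - 1 / N')))) - log (u (P (ρ * (1 + 1 / N'))))) ≤
          6 / N' ^ 2 * D ρ := by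
        have h3 : 1 / N' * (D (ρ * (1 + 1 / N')) - D (ρ * (1 - 1 / N'))) ≤
            1 / N' * (6 * (1 / N') * D ρ) := mul_le_mul_of_nonneg_left hDs hx0.le
        have h4 : 1 / N' * (6 * (1 / N') * D ρ) = 6 / N' ^ 2 * D ρ := by
          field_simp
        rw [h4] at h3
        refine le_trans (le_of_eq ?_) h3
        simp only [hD]; ring
      have h5 : ρ * (1 / N') * |G y - G (P ρ)| = ρ / N' * |G y - G (P ρ)| := by
        field_simp
      rw [h5] at h1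
      simp only [hD] at h2
      linarith

end Vale.Agent.P088.R2.H303
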